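import Crest.Agent.R246.Fub

/-!
# Row 246, block C2: comparison of Gaussian kernels, supports
-/

set_option autoImplicit false
set_option linter.unusedSectionVars false

open MeasureTheory Metric Filter Topology Set Module
open scoped RealInnerProductSpace ENNReal ContDiff Real

noncomputable section

namespace Crest.Agent.R246.C2

variable {E : Type} [NormedAddCommGroup E] [InnerProductSpace ℝ E] [FiniteDimensional ℝ E]
  [MeasurableSpace E] [BorelSpace E]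

/-- changing the radius -/
theorem gk_eq_gk (d : ℕ) (p q : E) {r R : ℝ} (hr : 0 < r) (hR : 0 < R) (y : E) :
    gk d p r y = (R / r) ^ d * Real.exp (‖y - q‖ ^ 2 / (2 * R ^ 2) - ‖y - p‖ ^ 2 / (2 * r ^ 2)) *
      gk d q R y := by
  have hπ : 0 < √(2 * π) := Real.sqrt_pos.2 (by have := Real.pi_pos; positivity)
  unfold gk
  have e : (√(2 * π) * r)⁻¹ = R / r * (√(2 * π) * R)⁻¹ := by field_simp
  rw [e, mul_pow, mul_mul_mul_comm, ← Real.exp_add]
  congr 2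
  ring

/-- moving the centre -/
theorem gk_le_gk (d : ℕ) (p q : E) {r R : ℝ} (hr : 0 < r) (h : r < R) (y : E) :
    gk d p r y ≤ (R / r) ^ d * Real.exp (‖p - q‖ ^ 2 / (2 * (R ^ 2 - r ^ 2))) * gk d q R y := by
  have hR := hr.trans h
  rw [gk_eq_gk d p q hr hR]
  have h1 : ‖y - q‖ ≤ ‖y - p‖ + ‖p - q‖ := norm_sub_le_norm_sub_add_norm_sub _ _ _
  have h2 : 0 < R ^ 2 - r ^ 2 := by nlinarith
  have h3 : ‖y - q‖ ^ 2 ≤ (‖y - p‖ + ‖p - q‖) ^ 2 := by gcongr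
  have h4 : (‖y - p‖ + ‖p - q‖) ^ 2 / (2 * R ^ 2) - ‖y - p‖ ^ 2 / (2 * r ^ 2) ≤
      ‖p - q‖ ^ 2 / (2 * (R ^ 2 - r ^ 2)) := by
    rw [div_sub_div _ _ (by positivity) (by positivity), div_le_div_iff₀ (by positivity) (by positivity)]
    nlinarith [sq_nonneg (‖y - p‖ * (R ^ 2 - r ^ 2) - ‖p - q‖ * r ^ 2)]
  have := (gk_pos d q hR y).le
  gcongr
  refine le_trans ?_ h4
  gcongr

theorem gk_le_zero (d : ℕ) (p : E) {r : ℝ} (hr : 0 < r) :
    ∃ K : ℝ, 0 < K ∧ ∀ y, gk d p r y ≤ K * gk d 0 (2 * r) y :=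
  ⟨_, by positivity, gk_le_gk d p 0 hr (by linarith)⟩

/-- second moments -/
theorem sq_gk_le (d : ℕ) (p : E) {r : ℝ} (hr : 0 < r) (y : E) :
    ‖y - p‖ ^ 2 * gk d p r y ≤ 3 * 2 ^ d * r ^ 2 * gk d p (2 * r) y := by
  rw [gk_eq_gk d p p hr (R := 2 * r) (by positivity), mul_div_cancel_right₀ _ hr.ne']
  have h0 := (gk_pos d p (r := 2 * r) (by positivity) y).le
  set u := 3 * ‖y - p‖ ^ 2 / (8 * r ^ 2) with hu
  have e : ‖y - p‖ ^ 2 / (2 * (2 * r) ^ 2) - ‖y - p‖ ^ 2 / (2 * r ^ 2) = -u := by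
    rw [hu]; field_simp; ring
  have e2 : ‖y - p‖ ^ 2 = 8 / 3 * r ^ 2 * u := by rw [hu]; field_simp
  have h1 : u * Real.exp (-u) ≤ 1 := by
    rw [Real.exp_neg, mul_inv_le_iff₀ (Real.exp_pos _), one_mul]
    linarith [Real.add_one_le_exp u]
  rw [e, e2]
  have h2 : 0 ≤ 2 ^ d * r ^ 2 * gk d p (2 * r) y := by positivity
  nlinarith

theorem sq_gk_le_zero (d : ℕ) (p q : E) {r : ℝ} (hr : 0 < r) :
    ∃ K : ℝ, 0 < K ∧ ∀ y, (1 + ‖y - q‖ ^ 2) * gk d p r y ≤ K * gk d 0 (4 * r) y := by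
  obtain ⟨K, hK, h⟩ := gk_le_zero d p (r := 2 * r) (by positivity)
  refine ⟨((1 + 2 * ‖p - q‖ ^ 2) * 2 ^ d + 2 * (3 * 2 ^ d * r ^ 2)) * K, by positivity, fun y => ?_⟩
  have h1 := h y
  have h2 := sq_gk_le d p hr y
  have h3 := gk_le_gk d p p hr (R := 2 * r) (by linarith) y
  rw [mul_div_cancel_right₀ _ hr.ne', sub_self, norm_zero] at h3
  simp only [ne_eq, OfNat.ofNat_ne_zero, not_false_eq_true, zero_pow, zero_div, Real.exp_zero,
    mul_one] at h3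
  have h4 : ‖y - q‖ ≤ ‖y - p‖ + ‖p - q‖ := norm_sub_le_norm_sub_add_norm_sub _ _ _
  have h5 : ‖y - q‖ ^ 2 ≤ 2 * ‖y - p‖ ^ 2 + 2 * ‖p - q‖ ^ 2 := by
    have : ‖y - q‖ ^ 2 ≤ (‖y - p‖ + ‖p - q‖) ^ 2 := by gcongr
    nlinarith [sq_nonneg (‖y - p‖ - ‖p - q‖)]
  have h6 := (gk_pos d p hr y).le
  rw [show 2 * (2 * r) = 4 * r by ring] at h1
  calc _ ≤ (1 + (2 * ‖y - p‖ ^ 2 + 2 * ‖p - q‖ ^ 2)) * gk d p r y := by gcongr
    _ = (1 + 2 * ‖p - q‖ ^ 2) * gk d p r y + 2 * (‖y - p‖ ^ 2 * gk d p r y) := by ring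
    _ ≤ (1 + 2 * ‖p - q‖ ^ 2) * (2 ^ d * gk d p (2 * r) y) +
        2 * (3 * 2 ^ d * r ^ 2 * gk d p (2 * r) y) := by gcongr
    _ = ((1 + 2 * ‖p - q‖ ^ 2) * 2 ^ d + 2 * (3 * 2 ^ d * r ^ 2)) * gk d p (2 * r) y := by ring
    _ ≤ ((1 + 2 * ‖p - q‖ ^ 2) * 2 ^ d + 2 * (3 * 2 ^ d * r ^ 2)) * (K * gk d 0 (4 * r) y) := by gcongr
    _ = _ := by ring

/-- a bounded function with bounded support is dominated by a Gaussian -/
theorem le_gk_of_bdd (d : ℕ) (R M : ℝ) : ∃ K : ℝ, ∀ (y : E) (a : ℝ), a ≤ M → (R ≤ ‖y‖ → a ≤ 0) →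
    a ≤ K * gk d 0 1 y := by
  have hπ : 0 < √(2 * π) := Real.sqrt_pos.2 (by have := Real.pi_pos; positivity)
  refine ⟨|M| / ((√(2 * π) * 1)⁻¹ ^ d * Real.exp (-R ^ 2 / (2 * 1 ^ 2))), fun y a h1 h2 => ?_⟩
  have h0 := gk_pos d (0 : E) one_pos y
  rcases le_or_gt R ‖y‖ with h | h
  · exact (h2 h).trans (by positivity)
  rw [div_mul_eq_mul_div, le_div_iff₀ (by positivity)]
  refine (mul_le_mul_of_nonneg_right (h1.trans (le_abs_self M)) (by positivity)).trans ?_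
  unfold gk
  gcongr
  rw [sub_zero]
  nlinarith [norm_nonneg y]

theorem gk_resc (d : ℕ) (p q : E) {r : ℝ} (hr : 0 < r) (ρ : ℝ) (y : E) :
    gk d (p + r • q) (r * ρ) y = r⁻¹ ^ d * gk d q ρ (r⁻¹ • (y - p)) := by
  have e : y - (p + r • q) = r • (r⁻¹ • (y - p) - q) := by
    rw [smul_sub, smul_inv_smul₀ hr.ne']; abel
  unfold gk
  rw [e, norm_smul, Real.norm_of_nonneg hr.le, ← mul_assoc (r⁻¹ ^ d), ← mul_pow]
  congr 2
  · rw [← mul_inv]; congr 1; ring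
  · rw [mul_pow, mul_pow, neg_div, neg_div, show 2 * (r ^ 2 * ρ ^ 2) = r ^ 2 * (2 * ρ ^ 2) by ring,
      mul_div_mul_left _ _ (by positivity)]

theorem integral_fst (V : Measure (E × E)) {f : E → ℝ} (hf : Continuous f) :
    ∫ y, f y ∂V.fst = ∫ z, f z.1 ∂V :=
  integral_map measurable_fst.aemeasurable hf.aestronglyMeasurable

theorem integrable_fst {V : Measure (E × E)} {f : E → ℝ} (hf : Continuous f) :
    Integrable f V.fst ↔ Integrable (fun z => f z.1) V :=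
  integrable_map_measure hf.aestronglyMeasurable measurable_fst.aemeasurable

theorem th_nonneg (d : ℕ) (μ : Measure E) (p : E) {r : ℝ} (hr : 0 < r) : 0 ≤ th d μ p r :=
  integral_nonneg fun y => (gk_pos d p hr y).le

theorem th_le_th {d : ℕ} {μ : Measure E} (p q : E) {r R : ℝ} (hr : 0 < r) (h : r < R)
    (hI : Integrable (gk d q R) μ) :
    th d μ p r ≤ (R / r) ^ d * Real.exp (‖p - q‖ ^ 2 / (2 * (R ^ 2 - r ^ 2))) * th d μ q R := by
  rw [th, th, ← integral_const_mul]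
  exact integral_mono_of_nonneg (Eventually.of_forall fun y => (gk_pos d p hr y).le) (hI.const_mul _)
    (Eventually.of_forall (gk_le_gk d p q hr h))

/-- integrability of Gaussian-dominated continuous functions -/
theorem integrable_of_dom {d : ℕ} {V : Measure (E × E)} (h1 : ∀ᵐ z ∂V, ‖z.2‖ ≤ 1) {φ : E × E → ℝ}
    {K r : ℝ} {p : E} (hI : Integrable (gk d p r) V.fst) (hφ : Continuous φ)
    (h : ∀ z : E × E, ‖z.2‖ ≤ 1 → |φ z| ≤ K * gk d p r z.1) : Integrable φ V :=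
  (((integrable_fst (continuous_gk d p r)).1 hI).const_mul K).mono' hφ.aestronglyMeasurable
    (h1.mono h)

/-- a point with a positive lower density ratio lies in the support -/
theorem mem_support_of_lower {d : ℕ} {μ : Measure E} {q : E} {c : ℝ} (hc : 0 < c)
    (hI : Integrable (gk d q 1) μ) (h : ∀ r, 0 < r → c ≤ th d μ q r) : q ∈ μ.support := by
  by_contra hq
  obtain ⟨ε, hε, hb⟩ := Metric.isOpen_iff.1 μ.isClosed_support.isOpen_compl q hq
  have h1 : ∀ r, 0 < r → r ≤ 1 → c ≤ (1 / r) ^ d * Real.exp (ε ^ 2 / 2 - ε ^ 2 / 2 * (1 / r)) * th d μ q 1 := by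
    intro r hr hr1
    refine (h r hr).trans ?_
    rw [th, th, ← integral_const_mul]
    refine integral_mono_of_nonneg (Eventually.of_forall fun y => (gk_pos d q hr y).le) (hI.const_mul _) ?_
    filter_upwards [μ.support_mem_ae] with y hy
    have h2 : ε ≤ ‖y - q‖ := by
      by_contra h3
      exact hb (mem_ball_iff_norm.2 (not_le.1 h3)) hy
    rw [gk_eq_gk d q q hr one_pos]
    refine mul_le_mul_of_nonneg_right (mul_le_mul_of_nonneg_left (Real.exp_le_exp.2 ?_) (by positivity))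
      (gk_pos d q one_pos y).le
    have h3 : 1 ≤ 1 / r := one_le_one_div hr hr1
    have h4 : ε ^ 2 ≤ ‖y - q‖ ^ 2 := by gcongr
    have e : ‖y - q‖ ^ 2 / (2 * r ^ 2) = ‖y - q‖ ^ 2 / 2 * (1 / r) ^ 2 := by field_simp
    rw [e]
    have h5 : 1 / r ≤ (1 / r) ^ 2 := by nlinarith
    have h6 : ε ^ 2 * (1 / r - 1) ≤ ‖y - q‖ ^ 2 * ((1 / r) ^ 2 - 1) := by gcongr
    nlinarith
  have h2 : Tendsto (fun x : ℝ => x ^ d * Real.exp (ε ^ 2 / 2 - ε ^ 2 / 2 * x) * th d μ q 1) atTop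
      (𝓝 (0 * Real.exp (ε ^ 2 / 2) * th d μ q 1)) := by
    have := (tendsto_rpow_mul_exp_neg_mul_atTop_nhds_zero d (ε ^ 2 / 2) (by positivity)).mul_const
      (Real.exp (ε ^ 2 / 2))
    refine (this.congr fun x => ?_).mul_const _
    rw [Real.rpow_natCast, mul_assoc, ← Real.exp_add]
    congr 2
    ring
  rw [zero_mul, zero_mul] at h2
  refine absurd (ge_of_tendsto h2 ?_) (not_le.2 hc)
  filter_upwards [eventually_ge_atTop 1] with x hx
  simpa using h1 (1 / x) (by positivity) (by rw [div_le_one (by positivity)]; exact hx)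

/-- `c ≤ K · a` for all the constants of `gk_le_gk` forces `c ≤ a` -/
theorem le_of_forall_const {d : ℕ} {c a R : ℝ} (hR : 0 < R) (h : ∀ r, 0 < r → r < R → ∀ ε, 0 < ε →
    c ≤ (R / r) ^ d * Real.exp (ε ^ 2 / (2 * (R ^ 2 - r ^ 2))) * a) : c ≤ a := by
  have h1 : ∀ r, 0 < r → r < R → c ≤ (R / r) ^ d * a := by
    intro r hr hrR
    have : Tendsto (fun ε : ℝ => (R / r) ^ d * Real.exp (ε ^ 2 / (2 * (R ^ 2 - r ^ 2))) * a) (𝓝[>] 0)
        (𝓝 ((R / r) ^ d * Real.exp (0 ^ 2 / (2 * (R ^ 2 - r ^ 2))) * a)) :=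
      (Continuous.tendsto (by fun_prop) 0).mono_left nhdsWithin_le_nhds
    simpa using ge_of_tendsto this (eventually_mem_nhdsWithin.mono fun ε hε => h r hr hrR ε hε)
  have h2 : Tendsto (fun r : ℝ => (R / r) ^ d * a) (𝓝[<] R) (𝓝 ((R / R) ^ d * a)) :=
    (ContinuousAt.tendsto (by fun_prop (disch := exact hR.ne'))).mono_left nhdsWithin_le_nhds
  rw [div_self hR.ne', one_pow, one_mul] at h2
  exact ge_of_tendsto h2 ((Ioo_mem_nhdsLT hR : _) |> fun m => mem_of_superset m fun r hr => h1 r hr.1 hr.2)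

end Crest.Agent.R246.C2
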