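import Crest.Agent.R246.C2.Gauss

/-!
# Row 246, block C2: limits of varifolds (`StComp`) and convergence of the supports
-/

set_option autoImplicit false
set_option linter.unusedSectionVars false

open MeasureTheory Metric Filter Topology Set Module
open scoped RealInnerProductSpace ENNReal ContDiff Real

noncomputable section

namespace Crest.Agent.R246.C2

variable {E : Type} [NormedAddCommGroup E] [InnerProductSpace ℝ E] [FiniteDimensional ℝ E]
  [MeasurableSpace E] [BorelSpace E]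

/-- the conclusion of `StComp` -/
structure Lim (d : ℕ) {ι : Type} (l : Filter ι) (V : ι → Measure (E × E)) (V₀ : Measure (E × E)) :
    Prop where
  le_one : ∀ᵐ z ∂V₀, ‖z.2‖ ≤ 1
  integ : ∀ p r, 0 < r → Integrable (gk d p r) V₀.fst
  tendsto : ∀ (φ : E × E → ℝ) (K r : ℝ), 0 < r → Continuous φ →
    (∀ z : E × E, ‖z.2‖ ≤ 1 → |φ z| ≤ K * gk d 0 r z.1) →
    Tendsto (fun j => ∫ z, φ z ∂V j) l (𝓝 (∫ z, φ z ∂V₀))

theorem exists_lim (hB : Bas) {d : ℕ} {ι : Type} (𝒰 : Ultrafilter ι) {V : ι → Measure (E × E)} {Θ : ℝ}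
    (hV : ∀ j, SV d (V j) Θ) : ∃ V₀, Lim d (𝒰 : Filter ι) V V₀ := by
  obtain ⟨V₀, h1, h2, h3⟩ := hB.comp E d ι 𝒰 V (fun j => (hV j).unit.mono fun z hz => hz.le)
    fun r hr => ⟨Θ, Eventually.of_forall fun j => ⟨(hV j).integ 0 r hr, (hV j).upper 0 r hr⟩⟩
  exact ⟨V₀, h1, h2, h3⟩

variable {d : ℕ} {ι : Type} {l : Filter ι} {V : ι → Measure (E × E)} {V₀ : Measure (E × E)}

/-- test functions with quadratic growth times a Gaussian -/
theorem Lim.tendsto_sq (h : Lim d l V V₀) {f : E × E → ℝ} (hf : Continuous f) {M : ℝ} (q : E)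
    (hM : ∀ z : E × E, ‖z.2‖ ≤ 1 → |f z| ≤ M * (1 + ‖z.1 - q‖ ^ 2)) (p : E) {r : ℝ} (hr : 0 < r) :
    Tendsto (fun j => ∫ z, f z * gk d p r z.1 ∂V j) l (𝓝 (∫ z, f z * gk d p r z.1 ∂V₀)) := by
  obtain ⟨K, -, hK⟩ := sq_gk_le_zero d p q hr
  refine h.tendsto _ (|M| * K) (4 * r) (by positivity) (hf.mul ((continuous_gk d p r).comp continuous_fst))
    fun z hz => ?_
  have := (gk_pos d p hr z.1).le
  rw [abs_mul, abs_of_nonneg this, mul_assoc]
  calc _ ≤ |M| * (1 + ‖z.1 - q‖ ^ 2) * gk d p r z.1 := by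
        gcongr
        exact (hM z hz).trans (by gcongr; exact le_abs_self M)
    _ ≤ _ := by rw [mul_assoc]; exact mul_le_mul_of_nonneg_left (hK _) (abs_nonneg _)

theorem Lim.th (h : Lim d l V V₀) (p : E) {r : ℝ} (hr : 0 < r) :
    Tendsto (fun j => th d (V j).fst p r) l (𝓝 (th d V₀.fst p r)) := by
  simp only [R246.th, integral_fst _ (continuous_gk d p r)]
  simpa using h.tendsto_sq (f := fun _ => 1) continuous_const (M := 1) 0
    (fun z _ => by rw [abs_one, one_mul]; exact le_add_of_nonneg_right (by positivity)) p hr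

theorem continuous_hx (d : ℕ) (p : E) (r : ℝ) (e : E) :
    Continuous fun y => ⟪e, y - p⟫ ^ 2 / r ^ 2 * gk d p (2 * r) y :=
  Continuous.mul (by fun_prop) (continuous_gk _ _ _)

theorem Lim.hx (h : Lim d l V V₀) (p : E) {r : ℝ} (hr : 0 < r) (e : E) :
    Tendsto (fun j => hx d (V j).fst p r e) l (𝓝 (hx d V₀.fst p r e)) := by
  simp only [R246.hx, integral_fst _ (continuous_hx d p r e)]
  refine h.tendsto_sq (f := fun z => ⟪e, z.1 - p⟫ ^ 2 / r ^ 2) (by fun_prop) (M := ‖e‖ ^ 2 / r ^ 2) p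
    (fun z _ => ?_) p (by positivity)
  rw [abs_of_nonneg (by positivity), div_mul_eq_mul_div]
  gcongr
  have := abs_real_inner_le_norm e (z.1 - p)
  rw [← sq_abs]
  calc _ ≤ (‖e‖ * ‖z.1 - p‖) ^ 2 := by gcongr
    _ ≤ _ := by rw [mul_pow]; gcongr; linarith

/-- a nonnegative continuous density with vanishing Gaussian integral vanishes -/
theorem ae_eq_zero_of_integral {V : Measure (E × E)} (h1 : ∀ᵐ z ∂V, ‖z.2‖ ≤ 1)
    (hI : ∀ p r, 0 < r → Integrable (gk d p r) V.fst) {f : E × E → ℝ} (hf : Continuous f) {M : ℝ} (q : E)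
    (hM : ∀ z : E × E, ‖z.2‖ ≤ 1 → 0 ≤ f z ∧ f z ≤ M * (1 + ‖z.1 - q‖ ^ 2)) (p : E) {r : ℝ} (hr : 0 < r)
    (h0 : ∫ z, f z * gk d p r z.1 ∂V = 0) : ∀ᵐ z ∂V, f z = 0 := by
  obtain ⟨K, -, hK⟩ := sq_gk_le_zero d p q hr
  have hi : Integrable (fun z : E × E => f z * gk d p r z.1) V := by
    refine integrable_of_dom h1 (hI 0 (4 * r) (by positivity)) (K := |M| * K)
      (hf.mul ((continuous_gk d p r).comp continuous_fst)) fun z hz => ?_
    have := (gk_pos d p hr z.1).le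
    rw [abs_mul, abs_of_nonneg this, mul_assoc, abs_of_nonneg (hM z hz).1]
    calc _ ≤ |M| * (1 + ‖z.1 - q‖ ^ 2) * gk d p r z.1 := by
          gcongr
          exact (hM z hz).2.trans (by gcongr; exact le_abs_self M)
      _ ≤ _ := by rw [mul_assoc]; exact mul_le_mul_of_nonneg_left (hK _) (abs_nonneg _)
  have := (integral_eq_zero_iff_of_nonneg_ae (h1.mono fun z hz =>
    mul_nonneg (hM z hz).1 (gk_pos d p hr z.1).le) hi).1 h0
  filter_upwards [this] with z hz
  exact (mul_eq_zero.1 hz).resolve_right (gk_pos d p hr z.1).ne'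

theorem continuous_trc : Continuous (trc : (E →L[ℝ] E) → ℝ) :=
  LinearMap.continuous_of_finiteDimensional
    ((LinearMap.trace ℝ E).comp (ContinuousLinearMap.coeLM ℝ : (E →L[ℝ] E) →ₗ[ℝ] E →ₗ[ℝ] E))

theorem continuous_divT {X : E → E} (hX : ContDiff ℝ 1 X) : Continuous (divT X) := by
  have := hX.continuous_fderiv one_ne_zero
  unfold divT
  exact (continuous_trc.comp (this.comp continuous_fst)).sub
    (continuous_snd.inner ((this.comp continuous_fst).clm_apply continuous_snd))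

theorem divT_dom (d : ℕ) {X : E → E} (hX : ContDiff ℝ 1 X) (hc : HasCompactSupport X) :
    ∃ K : ℝ, ∀ z : E × E, ‖z.2‖ ≤ 1 → |divT X z| ≤ K * gk d 0 1 z.1 := by
  have hc' := hc.fderiv (𝕜 := ℝ)
  obtain ⟨R, hR⟩ := hc'.isCompact.isBounded.subset_ball 0
  obtain ⟨M, hM⟩ := ((isCompact_closedBall (0 : E) R).prod (isCompact_closedBall (0 : E) 1)).exists_bound_of_continuousOn
    (continuous_divT hX).continuousOn
  obtain ⟨K, hK⟩ := le_gk_of_bdd (E := E) d R |M|
  have h0 : ∀ z : E × E, R ≤ ‖z.1‖ → |divT X z| ≤ 0 := fun z hz => by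
    have : fderiv ℝ X z.1 = 0 := image_eq_zero_of_notMem_tsupport fun h => by
      simpa [not_lt.2 hz] using hR h
    simp [divT, this, trc]
  refine ⟨K, fun z hz => hK _ _ ?_ (h0 z)⟩
  rcases le_total R ‖z.1‖ with h | h
  · exact (h0 z h).trans (abs_nonneg _)
  · exact (hM z ⟨by simpa using h, by simpa using hz⟩).trans (le_abs_self _)

theorem Lim.sv0 [l.NeBot] (h : Lim d l V V₀) (hV : ∀ᶠ j in l, SV0 d (V j)) : SV0 d V₀ where
  integ := h.integ
  unit := by
    have hM : ∀ z : E × E, ‖z.2‖ ≤ 1 → 0 ≤ 1 - ‖z.2‖ ∧ 1 - ‖z.2‖ ≤ 1 * (1 + ‖z.1 - 0‖ ^ 2) := fun z hz =>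
      ⟨by linarith, by nlinarith [norm_nonneg z.2]⟩
    have h1 := h.tendsto_sq (f := fun z => 1 - ‖z.2‖) (by fun_prop) (M := 1) 0
      (fun z hz => by rw [abs_of_nonneg (hM z hz).1]; exact (hM z hz).2) 0 one_pos
    have h2 : ∫ z, (1 - ‖z.2‖) * gk d 0 1 z.1 ∂V₀ = 0 := by
      refine tendsto_nhds_unique h1 (tendsto_const_nhds.congr' (hV.mono fun j hj => ?_))
      exact (integral_eq_zero_of_ae (hj.unit.mono fun z hz => by simp [hz])).symm
    filter_upwards [ae_eq_zero_of_integral h.le_one h.integ (by fun_prop) 0 hM 0 one_pos h2] with z hz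
    linarith
  stat X hX hc := by
    obtain ⟨K, hK⟩ := divT_dom d hX hc
    exact tendsto_nhds_unique (h.tendsto _ K 1 one_pos (continuous_divT hX) hK)
      (tendsto_const_nhds.congr' (hV.mono fun j hj => (hj.stat X hX hc).symm))

theorem Lim.sv [l.NeBot] (h : Lim d l V V₀) {Θ : ℝ} (hV : ∀ᶠ j in l, SV d (V j) Θ) : SV d V₀ Θ where
  toSV0 := h.sv0 (hV.mono fun _ hj => hj.toSV0)
  upper p r hr := le_of_tendsto (h.th p hr) (hV.mono fun _ hj => hj.upper p r hr)

/-- lower density bounds pass to the limit, with moving centres -/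
theorem Lim.le_th (h : Lim d l V V₀) (hV : ∀ᶠ j in l, SV0 d (V j)) {q : E} {c : ℝ}
    (hq : ∀ ε, 0 < ε → ∀ r, 0 < r → ∃ᶠ j in l, ∃ y, dist y q < ε ∧ c ≤ R246.th d (V j).fst y r)
    {R : ℝ} (hR : 0 < R) : c ≤ R246.th d V₀.fst q R := by
  refine le_of_forall_const (d := d) hR fun r hr hrR ε hε => ?_
  refine ge_of_tendsto_of_frequently ((h.th q hR).const_mul _) (((hq ε hε r hr).and_eventually hV).mono ?_)
  rintro j ⟨⟨y, h1, h2⟩, hj⟩
  refine h2.trans ((th_le_th y q hr hrR (hj.integ q R hR)).trans ?_)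
  have := th_nonneg d (V j).fst q hR
  have h3 : 0 < R ^ 2 - r ^ 2 := by nlinarith
  rw [dist_eq_norm] at h1
  gcongr

/-- limits of points of the supports lie in the support of the limit -/
theorem Lim.mem_support (h : Lim d l V V₀) {c : ℝ} (hc : 0 < c)
    (hV : ∀ᶠ j in l, SV0 d (V j) ∧ Lower d (V j).fst c) {q : E}
    (hq : ∀ ε, 0 < ε → ∃ᶠ j in l, ∃ y ∈ (V j).fst.support, dist y q < ε) : q ∈ V₀.fst.support := by
  refine mem_support_of_lower hc (h.integ q 1 one_pos) fun R hR =>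
    h.le_th (hV.mono fun _ hj => hj.1) (fun ε hε r hr => ((hq ε hε).and_eventually hV).mono ?_) hR
  rintro j ⟨⟨y, h1, h2⟩, hj⟩
  exact ⟨y, h2, hj.2 y h1 r hr⟩

/-- points of the support of the limit are limits of points of the supports -/
theorem Lim.approx (h : Lim d l V V₀) {q : E} (hq : q ∈ V₀.fst.support) {ε : ℝ} (hε : 0 < ε) :
    ∀ᶠ j in l, ∃ y ∈ (V j).fst.support, dist y q < ε := by
  let φ : E → ℝ := fun y => max (ε - dist y q) 0 * gk d 0 1 y
  have hφ : Continuous φ := Continuous.mul (by fun_prop) (continuous_gk _ _ _)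
  have h0 : ∀ y, 0 ≤ φ y := fun y => mul_nonneg (le_max_right _ _) (gk_pos d 0 one_pos y).le
  have hd : ∀ z : E × E, ‖z.2‖ ≤ 1 → |φ z.1| ≤ ε * gk d 0 1 z.1 := fun z _ => by
    rw [abs_of_nonneg (h0 _)]
    exact mul_le_mul_of_nonneg_right (max_le (by linarith [dist_nonneg (x := z.1) (y := q)]) hε.le)
      (gk_pos d 0 one_pos _).le
  have h1 := h.tendsto (fun z => φ z.1) ε 1 one_pos (hφ.comp continuous_fst) hd
  have h2 : 0 < ∫ z, φ z.1 ∂V₀ := by
    rw [← integral_fst _ hφ, integral_pos_iff_support_of_nonneg h0 ((integrable_fst hφ).2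
      (integrable_of_dom h.le_one (h.integ 0 1 one_pos) (hφ.comp continuous_fst) hd))]
    refine (Measure.mem_support_iff_forall _).1 hq _ (mem_of_superset (ball_mem_nhds q hε) fun y hy => ?_)
    exact (mul_pos (lt_max_of_lt_left (sub_pos.2 hy)) (gk_pos d 0 one_pos y)).ne'
  filter_upwards [h1.eventually (lt_mem_nhds h2)] with j hj
  by_contra hn
  push Not at hn
  rw [← integral_fst _ hφ] at hj
  refine hj.ne' (integral_eq_zero_of_ae ?_)
  filter_upwards [(V j).fst.support_mem_ae] with y hy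
  simp [φ, hn y hy]

theorem Lim.lower [l.NeBot] (h : Lim d l V V₀) {c : ℝ}
    (hV : ∀ᶠ j in l, SV0 d (V j) ∧ Lower d (V j).fst c) : Lower d V₀.fst c := fun q hq R hR => by
  refine h.le_th (hV.mono fun _ hj => hj.1) (fun ε hε r hr => ((h.approx hq hε).and hV).frequently.mono ?_) hR
  rintro j ⟨⟨y, h1, h2⟩, hj⟩
  exact ⟨y, h2, hj.2 y h1 r hr⟩

/-- a compact set missing the support of the limit misses the supports eventually -/
theorem Lim.disjoint (h : Lim d l V V₀) {c : ℝ} (hc : 0 < c)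
    (hV : ∀ᶠ j in l, SV0 d (V j) ∧ Lower d (V j).fst c) {K : Set E} (hK : IsCompact K)
    (hd : ∀ q ∈ K, q ∉ V₀.fst.support) : ∀ᶠ j in l, ∀ y ∈ K, y ∉ (V j).fst.support := by
  refine hK.induction_on (p := fun S => ∀ᶠ j in l, ∀ y ∈ S, y ∉ (V j).fst.support) (by simp)
    (fun S T hST hT => hT.mono fun j hj y hy => hj y (hST hy))
    (fun S T hS hT => (hS.and hT).mono fun j hj y hy => hy.elim (hj.1 y) (hj.2 y)) fun q hq => ?_
  by_contra hn
  push Not at hn
  refine hd q hq (h.mem_support hc hV fun ε hε => ?_)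
  refine (hn _ (mem_nhdsWithin_of_mem_nhds (ball_mem_nhds q hε))).mono ?_
  rintro j ⟨y, h1, h2⟩
  exact ⟨y, h2, h1⟩

end Crest.Agent.R246.C2
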