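import Crest.Agent.R246.C2.Slice

/-!
# Row 246, block C2: dimension reduction
-/

set_option autoImplicit false
set_option linter.unusedSectionVars false

open MeasureTheory Metric Filter Topology Set Module
open scoped RealInnerProductSpace ENNReal ContDiff Real

noncomputable section

namespace Crest.Agent.R246.C2

variable {E : Type} [NormedAddCommGroup E] [InnerProductSpace ℝ E] [FiniteDimensional ℝ E]
  [MeasurableSpace E] [BorelSpace E] {d : ℕ} {V V₀ : Measure (E × E)} {s : E → ℝ} {Θ : ℝ} {p : E}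

theorem col_const {C K : Set E} (hC : Col C s) (hK : IsPreconnected K) (h : ∀ y ∈ K, y ∉ C) {a b : E}
    (ha : a ∈ K) (hb : b ∈ K) : s a = s b :=
  hK.constant_of_mapsTo (T := {1, -1}) (Set.toFinite _).isDiscrete
    (fun y hy => (tendsto_const_nhds.congr' ((hC.loc y (h y hy)).mono fun _ h => h.symm)).mono_left
      nhdsWithin_le_nhds) (fun y _ => hC.sign y) ha hb

variable {ι : Type} {𝒰 : Ultrafilter ι} {r : ι → ℝ}

open Classical in
/-- the limit colouring -/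
def limCol (𝒰 : Ultrafilter ι) (s : E → ℝ) (p : E) (r : ι → ℝ) (y : E) : ℝ :=
  if ∀ᶠ j in (𝒰 : Filter ι), s (p + r j • y) = 1 then 1 else -1

theorem eventually_limCol (hs : ∀ y, s y = 1 ∨ s y = -1) (y : E) :
    ∀ᶠ j in (𝒰 : Filter ι), s (p + r j • y) = limCol 𝒰 s p r y := by
  unfold limCol
  split_ifs with h
  · exact h
  · exact (Ultrafilter.eventually_not.2 h).mono fun j hj => (hs _).resolve_left hj

theorem col_lim (hV : Cls d V s Θ) (hr : ∀ j, 0 < r j)
    (hL : Lim d (𝒰 : Filter ι) (fun j => resc d p (r j) V) V₀) : Col V₀.fst.support (limCol 𝒰 s p r) where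
  sign y := by
    unfold limCol
    split_ifs <;> simp
  loc y hy := by
    obtain ⟨c, hc, hl⟩ := hV.lower
    obtain ⟨ρ, hρ, hb⟩ := nhds_basis_closedBall.mem_iff.1 (V₀.fst.isClosed_support.isOpen_compl.mem_nhds hy)
    have h1 := hL.disjoint hc (Eventually.of_forall fun j =>
      ⟨SV0.resc hV.toSV0 p (hr j), Lower.resc hl p (hr j)⟩) (isCompact_closedBall y ρ) hb
    filter_upwards [closedBall_mem_nhds y hρ] with y' hy'
    obtain ⟨j, a1, a2, a3⟩ := (h1.and ((eventually_limCol (p := p) (r := r) hV.col.sign y).and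
      (eventually_limCol (p := p) (r := r) hV.col.sign y'))).exists
    rw [← a2, ← a3]
    refine col_const hV.col (K := (fun y => p + r j • y) '' closedBall y ρ)
      ((convex_closedBall y ρ).isPreconnected.image _ (by fun_prop)) ?_ ⟨_, hy', rfl⟩
      ⟨_, mem_closedBall_self hρ.le, rfl⟩
    rintro _ ⟨z, hz, rfl⟩ h
    exact a1 z hz ((mem_support_resc (hr j)).2 h)

/-- unrestricted quantisation for blow-up limits -/
theorem quant_lim (hV : Cls d V s Θ) (hp : p ≠ 0) (hr : ∀ j, 0 < r j) (ht : Tendsto r 𝒰 (𝓝 0))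
    (hL : Lim d (𝒰 : Filter ι) (fun j => resc d p (r j) V) V₀) {η : ℝ} (hη : 0 < η) :
    ∃ δ : ℝ, 0 < δ ∧ ∀ (q : E) (ρ : ℝ) (e : E), 0 < ρ → ‖e‖ = 1 → hx d V₀.fst q ρ e ≤ δ →
      th d V₀.fst q ρ ≤ η ∨ 2 - η ≤ th d V₀.fst q ρ ∨
        (|th d V₀.fst q ρ - 1| ≤ η ∧ limCol 𝒰 s p r (q + ρ • e) ≠ limCol 𝒰 s p r (q - ρ • e)) := by
  obtain ⟨δ, hδ, hq⟩ := hV.quant η hη
  refine ⟨δ / 2, by positivity, fun q ρ e hρ he hx => ?_⟩
  have h1 := (hL.hx q hρ e).eventually (gt_mem_nhds (hx.trans_lt (half_lt_self hδ)))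
  have h2 : ∀ᶠ j in (𝒰 : Filter ι), r j * ρ < δ * ‖p + r j • q‖ :=
    (ht.mul_const ρ).eventually_lt (((ht.smul_const q).const_add p).norm.const_mul δ)
      (by simpa using mul_pos hδ (norm_pos_iff.2 hp))
  have h3 := hL.th q hρ
  simp only [th_resc (hr _), hx_resc (hr _)] at h1 h3
  have h4 := (h1.and h2).mono fun j hj => hq _ _ e (mul_pos (hr j) hρ) hj.2.le he hj.1.le
  rcases Ultrafilter.eventually_or.1 h4 with h | h
  · exact Or.inl (le_of_tendsto h3 h)
  rcases Ultrafilter.eventually_or.1 h with h | h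
  · exact Or.inr (Or.inl (ge_of_tendsto h3 h))
  refine Or.inr (Or.inr ⟨le_of_tendsto (h3.sub_const 1).abs (h.mono fun _ hj => hj.1), ?_⟩)
  obtain ⟨j, a1, a2, a3⟩ := (h.and ((eventually_limCol (p := p) (r := r) hV.col.sign (q + ρ • e)).and
    (eventually_limCol (p := p) (r := r) hV.col.sign (q - ρ • e)))).exists
  rw [← a2, ← a3, smul_add, smul_sub, smul_smul, ← add_assoc, ← add_sub_assoc]
  exact a1.2

/-- tangent varifolds are cones -/
theorem vcone_lim (hB : Bas) (hE : finrank ℝ E = d + 1) (hV : SV0 d V) (hr : ∀ j, 0 < r j)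
    (ht : Tendsto r 𝒰 (𝓝 0)) (hL : Lim d (𝒰 : Filter ι) (fun j => resc d p (r j) V) V₀) : VCone V₀ := by
  have h0 := hL.sv0 (Eventually.of_forall fun j => SV0.resc hV p (hr j))
  have := inner_eq_zero hB hE h0 0 (ge_of_tendsto (hL.th 0 one_pos) (Eventually.of_forall fun k =>
    le_of_tendsto (hL.th 0 two_pos) ?_))
  · simpa [VCone] using this
  filter_upwards [ht.eventually (gt_mem_nhds (half_pos (hr k)))] with j hj
  rw [th_resc (hr j), th_resc (hr k), smul_zero, smul_zero]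
  exact th_mono hB hE hV _ (mul_pos (hr j) two_pos) (by linarith)

/-- tangent varifolds of a cone contain the direction of the base point -/
theorem orth_lim (hc : VCone V) (hr : ∀ j, 0 < r j)
    (ht : Tendsto r 𝒰 (𝓝 0)) (hL : Lim d (𝒰 : Filter ι) (fun j => resc d p (r j) V) V₀) :
    ∀ᵐ z ∂V₀, ⟪z.2, p⟫ = 0 := by
  have hM : ∀ z : E × E, ‖z.2‖ ≤ 1 → 0 ≤ ⟪z.2, p⟫ ^ 2 ∧ ⟪z.2, p⟫ ^ 2 ≤ ‖p‖ ^ 2 * (1 + ‖z.1 - 0‖ ^ 2) :=
    fun z hz => ⟨sq_nonneg _, (inner_sq_le hz p).trans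
      (le_mul_of_one_le_right (sq_nonneg _) (le_add_of_nonneg_right (sq_nonneg _)))⟩
  have h1 := hL.tendsto_sq (f := fun z => ⟪z.2, p⟫ ^ 2) (by fun_prop) 0
    (fun z hz => by rw [abs_of_nonneg (hM z hz).1]; exact (hM z hz).2) 0 one_pos
  have h2 := (ht.pow 2).mul (hL.tendsto_sq (f := fun z => ⟪z.2, z.1⟫ ^ 2) (by fun_prop) (M := 1) 0
    (fun z hz => by
      rw [abs_of_nonneg (sq_nonneg _), sub_zero]; exact (inner_sq_le hz _).trans (by linarith)) 0 one_pos)
  have h3 : ∫ z, ⟪z.2, p⟫ ^ 2 * gk d 0 1 z.1 ∂V₀ = 0 := by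
    refine (tendsto_nhds_unique h1 (h2.congr fun j => ?_)).trans (by simp)
    rw [← integral_const_mul]
    refine integral_congr_ae ((ae_resc (P := fun z => ⟪z.2, p⟫ = -(r j * ⟪z.2, z.1⟫))
      (measurableSet_eq_fun (by fun_prop) (by fun_prop)) (hc.mono fun z hz => ?_)).mono fun z hz => ?_)
    · simp only [inner_smul_right, inner_sub_right, hz]
      field_simp [(hr j).ne']
      ring
    · simp only [hz]
      ring
  filter_upwards [ae_eq_zero_of_integral hL.le_one hL.integ (by fun_prop) 0 hM 0 one_pos h3] with z hz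
  simpa using hz

theorem tan (hB : Bas) : StTan E := by
  intro d hE hK V s Θ hV hc hΘ p hp hp0 ε hε
  obtain ⟨c, hc0, hl⟩ := hV.lower
  let r : ℕ → ℝ := fun j => 1 / ((j : ℝ) + 1)
  have hr : ∀ j, 0 < r j := fun j => Nat.one_div_pos_of_nat
  have ht : Tendsto r (hyperfilter ℕ) (𝓝 0) :=
    tendsto_one_div_add_atTop_nhds_zero_nat.mono_left Nat.hyperfilter_le_atTop
  obtain ⟨V₀, hL⟩ := exists_lim hB (hyperfilter ℕ) fun j => SV.resc hV.toSV p (hr j)
  have hj : ∀ᶠ j in (hyperfilter ℕ : Filter ℕ), SV0 (d + 1) (resc (d + 1) p (r j) V) ∧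
      Lower (d + 1) (resc (d + 1) p (r j) V).fst c :=
    Eventually.of_forall fun j => ⟨SV0.resc hV.toSV0 _ (hr j), Lower.resc hl _ (hr j)⟩
  have h0 := hL.sv (Eventually.of_forall fun j => SV.resc hV.toSV p (hr j))
  have h1 := hL.lower hj
  have hI : Inv d (‖p‖⁻¹ • p) V₀ := ⟨norm_smul_inv_norm hp0, hE, h0.toSV0,
    (orth_lim hc hr ht hL).mono fun z hz => by rw [inner_smul_right, hz, mul_zero]⟩
  generalize ‖p‖⁻¹ • p = e at hI
  have h2 := hI.sv0 hB
  have h3 : ∀ x : (ℝ ∙ e)ᗮ, (x : E) ∈ V₀.fst.support → x ∈ (slc e V₀).fst.support := fun x hx =>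
    mem_support_of_lower hc0 (h2.integ x 1 one_pos) fun ρ hρ => hI.th x hρ ▸ h1 _ hx ρ hρ
  have h4 := col_lim hV hr hL
  have hC : Cls d (slc e V₀) (fun x => limCol (hyperfilter ℕ) s p r x) Θ :=
    { toSV0 := h2
      upper := fun x ρ hρ => hI.th x hρ ▸ h0.upper _ ρ hρ
      lower := ⟨c, hc0, fun x hx ρ hρ => hI.th x hρ ▸ h1 _ (hI.coe_mem_support hx) ρ hρ⟩
      col := ⟨fun x => h4.sign _, fun x hx =>
        continuous_subtype_val.continuousAt.eventually (h4.loc _ fun h => hx (h3 x h))⟩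
      quant := fun η hη => by
        obtain ⟨δ, hδ, hq⟩ := quant_lim hV hp0 hr ht hL hη
        refine ⟨δ, hδ, fun x ρ a hρ _ ha hx => ?_⟩
        rw [hI.hx x hρ] at hx
        rw [hI.th x hρ]
        exact hq x ρ a hρ ha hx }
  obtain ⟨a, ha, hf⟩ := hK e hI.he (finrank_orth' hE hI.he) _ _ _ hC
    (hI.vcone (vcone_lim hB hE hV.toSV0 hr ht hL)) hΘ
  obtain ⟨j, h5⟩ := (hL.disjoint hc0 hj (K := closedBall 0 1 ∩ {q | ε ≤ |⟪(a : E), q⟫|})
    ((isCompact_closedBall 0 1).inter_right (isClosed_le continuous_const (by fun_prop))) fun q hq hq' => by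
      have := hf (pr e q) (h3 _ (coe_pr hI.he q ▸ hI.mem_support_add hq' _))
      rw [real_inner_comm, inner_pr, real_inner_comm] at this
      exact hε.not_ge (by simpa [this] using hq.2)).exists
  refine ⟨r j, a, hr j, ha, fun y hy hyp => ?_⟩
  have hrj := hr j
  by_contra hn
  refine h5 ((r j)⁻¹ • (y - p)) ⟨?_, ?_⟩ ((mem_support_resc hrj).2 ?_)
  · rw [mem_closedBall_zero_iff, norm_smul, norm_inv, Real.norm_of_nonneg hrj.le, inv_mul_le_one₀ hrj,
      ← dist_eq_norm]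
    exact hyp.le
  · rw [mem_ofPred_eq, inner_smul_right, abs_mul, abs_of_pos (inv_pos.2 hrj), le_inv_mul_iff₀ hrj, mul_comm]
    exact (not_le.1 hn).le
  · rwa [smul_inv_smul₀ hrj.ne', add_sub_cancel]

end Crest.Agent.R246.C2
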