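import Crest.Agent.R246.C2.One
import Crest.Agent.R246.C2.Tan

/-! Row 246, block C2: final statements (see `R246/Blueprint.lean`). -/

set_option autoImplicit false

namespace Crest.Agent.R246

theorem stOne (hB : Bas) : All fun E => StOne E := fun _ => C2.one hB

theorem stFlat (hB : Bas) : All fun E => StFlat E := fun _ => C2.flat hB

theorem stK0 : All fun E => StK0 E := fun _ => C2.k0

theorem stTan (hB : Bas) : All fun E => StTan E := fun _ => C2.tan hB

end Crest.Agent.R246
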