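import Crest.Agent.R246.C2.Rig

/-!
# Row 246, block C2: density at least one, flat members, dimension zero
-/

set_option autoImplicit false
set_option linter.unusedSectionVars false

open MeasureTheory Metric Filter Topology Set Module
open scoped RealInnerProductSpace ENNReal ContDiff Real

noncomputable section

namespace Crest.Agent.R246.C2

variable {E : Type} [NormedAddCommGroup E] [InnerProductSpace ℝ E] [FiniteDimensional ℝ E]
  [MeasurableSpace E] [BorelSpace E] {d : ℕ} {V : Measure (E × E)}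

theorem SV0.lim_const (hV : SV0 d V) : Lim d (⊤ : Filter Unit) (fun _ => V) V :=
  ⟨hV.unit.mono fun _ hz => hz.le, hV.integ, fun _ _ _ _ _ _ => tendsto_const_nhds⟩

/-- a lower bound away from the origin holds everywhere -/
theorem lower_of_ne {Θ c : ℝ} (hd : 1 ≤ d) (hV : SV d V Θ)
    (h : ∀ p ∈ V.fst.support, p ≠ 0 → ∀ r, 0 < r → c ≤ th d V.fst p r) : Lower d V.fst c := by
  intro q hq R hR
  rcases eq_or_ne q 0 with rfl | h0
  · refine (SV0.lim_const hV.toSV0).le_th (Eventually.of_forall fun _ => hV.toSV0)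
      (fun ε hε r hr => Eventually.frequently (Eventually.of_forall fun _ => ?_)) hR
    obtain ⟨p, h1, h2, h3⟩ := exists_near hd hV hq hε
    exact ⟨p, h3, h p h1 h2 r hr⟩
  · exact h q hq h0 R hR

theorem one (hB : Bas) : StOne E := by
  intro d hE hd V s Θ hV p₀ hp₀ r₀ hr₀
  obtain ⟨c, hc, hl⟩ := hV.lower
  let S : Set ℝ := {x | ∃ p ∈ V.fst.support, p ≠ 0 ∧ ∃ r, 0 < r ∧ x = th d V.fst p r}
  have hSc : c ∈ lowerBounds S := by
    rintro _ ⟨p, hp, -, r, hr, rfl⟩
    exact hl p hp r hr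
  have hSne : S.Nonempty := by
    rcases eq_or_ne p₀ 0 with rfl | h0
    · obtain ⟨p, h1, h2, -⟩ := exists_near hd hV.toSV hp₀ one_pos
      exact ⟨_, p, h1, h2, 1, one_pos, rfl⟩
    · exact ⟨_, p₀, hp₀, h0, 1, one_pos, rfl⟩
  have hcθ : c ≤ sInf S := le_csInf hSne hSc
  have hlow : Lower d V.fst (sInf S) :=
    lower_of_ne hd hV.toSV fun p hp h0 r hr => csInf_le ⟨c, hSc⟩ ⟨p, hp, h0, r, hr, rfl⟩
  refine le_trans ?_ (hlow p₀ hp₀ r₀ hr₀)
  set θ := sInf S
  have hex : ∀ j : ℕ, ∃ p ∈ V.fst.support, p ≠ 0 ∧ ∃ ρ, 0 < ρ ∧ th d V.fst p ρ < θ + 1 / ((j : ℝ) + 1) := by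
    intro j
    obtain ⟨_, ⟨p, hp, h0, r, hr, rfl⟩, h⟩ := exists_lt_of_csInf_lt hSne
      (lt_add_of_pos_right θ (Nat.one_div_pos_of_nat (n := j)))
    exact ⟨p, hp, h0, r, hr, h⟩
  choose p hp hp0 ρ hρ hth using hex
  let r : ℕ → ℝ := fun j => min (ρ j) ‖p j‖ * (1 / ((j : ℝ) + 1))
  have hr : ∀ j, 0 < r j := fun j => mul_pos (lt_min (hρ j) (norm_pos_iff.2 (hp0 j))) Nat.one_div_pos_of_nat
  obtain ⟨V₀, hL⟩ := exists_lim hB (hyperfilter ℕ) fun j => SV.resc hV.toSV (p j) (hr j)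
  have ht : Tendsto (fun j : ℕ => 1 / ((j : ℝ) + 1)) (hyperfilter ℕ) (𝓝 0) :=
    tendsto_one_div_add_atTop_nhds_zero_nat.mono_left Nat.hyperfilter_le_atTop
  have hj : ∀ᶠ j in (hyperfilter ℕ : Filter ℕ), SV0 d (resc d (p j) (r j) V) ∧
      Lower d (resc d (p j) (r j) V).fst θ :=
    Eventually.of_forall fun j => ⟨SV0.resc hV.toSV0 _ (hr j), Lower.resc hlow _ (hr j)⟩
  have h0 := hL.sv0 (hj.mono fun _ h => h.1)
  have h1 := hL.lower hj
  have h2 : (0 : E) ∈ V₀.fst.support := hL.mem_support (hc.trans_le hcθ) hj fun ε hε =>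
    Eventually.frequently (Eventually.of_forall fun j =>
      ⟨0, (mem_support_resc (hr j)).2 (by simpa using hp j), by simpa using hε⟩)
  have h3 : ∀ R, 0 < R → th d V₀.fst 0 R ≤ θ := fun R hR => by
    refine le_of_tendsto_of_tendsto (hL.th 0 hR) (by simpa using ht.const_add θ) ?_
    filter_upwards [ht.eventually (gt_mem_nhds (inv_pos.2 hR))] with j hj
    rw [th_resc (hr j), smul_zero, add_zero]
    refine (th_mono hB hE hV.toSV0 _ (mul_pos (hr j) hR) ?_).trans (by simpa using (hth j).le)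
    calc r j * R ≤ ρ j * R⁻¹ * R := by
          have := (hρ j).le
          simp only [r]
          gcongr
          exact min_le_left _ _
      _ = ρ j := inv_mul_cancel_right₀ hR.ne' _
  obtain ⟨e, he, hf⟩ := flat_of_forall h0 h2 fun q hq => inner_eq_zero hB hE h0 q
    ((th_le_of_zero hB hE h0 h3 q two_pos).trans (h1 q hq 1 one_pos))
  have h4 := hL.hx 0 one_pos e
  rw [hx_eq_zero hf (inner_zero_right _)] at h4
  have h5 := hL.th 0 one_pos
  rw [le_antisymm (h3 1 one_pos) (h1 0 h2 1 one_pos)] at h5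
  have key : ∀ η, 0 < η → η ≤ 1 → θ ≤ η ∨ 1 - η ≤ θ := fun η hη hη1 => by
    obtain ⟨δ, hδ, hq⟩ := hV.quant η hη
    refine ((isClosed_Iic (a := η)).union (isClosed_Ici (a := 1 - η))).mem_of_tendsto h5 ?_
    filter_upwards [ht.eventually (gt_mem_nhds hδ), h4.eventually (gt_mem_nhds hδ)] with j a1 a2
    rw [hx_resc (hr j), smul_zero, add_zero, mul_one] at a2
    rw [th_resc (hr j), smul_zero, add_zero, mul_one]
    rcases hq (p j) (r j) e (hr j) (by
      rw [mul_comm]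
      exact mul_le_mul (min_le_right _ _) a1.le (by positivity) (norm_nonneg _)) he a2.le with h | h | h
    · exact Or.inl h
    · exact Or.inr (show 1 - η ≤ _ by linarith)
    · exact Or.inr (show 1 - η ≤ _ by linarith [(abs_le.1 h.1).1])
  by_contra hn
  rcases key (min (c / 2) ((1 - θ) / 2)) (lt_min (by positivity) (by linarith))
    ((min_le_right _ _).trans (by linarith)) with h | h
  · linarith [min_le_left (c / 2) ((1 - θ) / 2)]
  · linarith [min_le_right (c / 2) ((1 - θ) / 2)]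

theorem flat (hB : Bas) : StFlat E := by
  rintro d hE hd V s Θ hV hΘ ⟨e, he, hf⟩
  obtain ⟨-, θ, -, -, hθ⟩ := hB.const E d hE V hV.toSV0 e he hf
  have : Nontrivial (ℝ ∙ e)ᗮ := Module.nontrivial_of_finrank_pos (R := ℝ) (by rw [finrank_orth' hE he]; omega)
  obtain ⟨x, hx⟩ := exists_norm_eq (ℝ ∙ e)ᗮ (zero_le_one (α := ℝ))
  have hx' : ‖(x : E)‖ = 1 := hx
  have h1 : θ ≤ Θ := hθ 0 1 (inner_zero_right _) one_pos ▸ hV.upper 0 1 one_pos
  rw [hθ 0 1 (inner_zero_right _) one_pos]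
  by_contra hn
  have hη : 0 < min ((2 - Θ) / 2) ((θ - 1) / 2) := lt_min (by linarith) (by linarith)
  obtain ⟨δ, hδ, hq⟩ := hV.quant _ hη
  have := hq x δ e hδ (by rw [hx', mul_one]) he (by rw [hx_eq_zero hf (inner_orth x)]; exact hδ.le)
  rw [hθ x δ (inner_orth x) hδ] at this
  have a1 := min_le_left ((2 - Θ) / 2) ((θ - 1) / 2)
  have a2 := min_le_right ((2 - Θ) / 2) ((θ - 1) / 2)
  rcases this with h | h | h
  · linarith
  · linarith
  · linarith [(abs_le.1 h.1).2]

theorem k0 : StK0 E := by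
  intro hE V s Θ hV hc _
  have : Nontrivial E := Module.nontrivial_of_finrank_pos (R := ℝ) (by omega)
  obtain ⟨e, he⟩ := exists_norm_eq E (zero_le_one (α := ℝ))
  have h : ∀ᵐ y ∂V.fst, y ∈ ({0} : Set E) := by
    refine (ae_map_iff measurable_fst.aemeasurable (measurableSet_singleton _)).2 ?_
    filter_upwards [hV.unit, hc] with z h1 h2
    have h3 : Subsingleton (ℝ ∙ z.2)ᗮ := Module.finrank_zero_iff.1 (finrank_orth' hE h1)
    exact congrArg Subtype.val (Subsingleton.elim (α := (ℝ ∙ z.2)ᗮ)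
      ⟨z.1, Submodule.mem_orthogonal_singleton_iff_inner_right.2 h2⟩ 0)
  refine ⟨e, he, fun y hy => ?_⟩
  rw [mem_singleton_iff.1 (Measure.support_subset_of_isClosed isClosed_singleton h hy), inner_zero_right]

end Crest.Agent.R246.C2
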