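import Crest.Agent.R246.C2.Lim

/-!
# Row 246, block C2: rescaling of varifolds
-/

set_option autoImplicit false
set_option linter.unusedSectionVars false

open MeasureTheory Metric Filter Topology Set Module
open scoped RealInnerProductSpace ENNReal ContDiff Real

noncomputable section

namespace Crest.Agent.R246.C2

variable {E : Type} [NormedAddCommGroup E] [InnerProductSpace ℝ E] [FiniteDimensional ℝ E]
  [MeasurableSpace E] [BorelSpace E]

/-- the varifold seen from `p` at scale `r` -/
def resc (d : ℕ) (p : E) (r : ℝ) (V : Measure (E × E)) : Measure (E × E) :=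
  ENNReal.ofReal (r⁻¹ ^ d) • V.map fun z => (r⁻¹ • (z.1 - p), z.2)

variable {d : ℕ} {p : E} {r : ℝ} {V : Measure (E × E)}

theorem integral_resc (hr : 0 < r) {φ : E × E → ℝ} (hφ : Continuous φ) :
    ∫ z, φ z ∂resc d p r V = r⁻¹ ^ d * ∫ z, φ (r⁻¹ • (z.1 - p), z.2) ∂V := by
  rw [resc, integral_smul_measure, integral_map (by fun_prop) hφ.aestronglyMeasurable,
    ENNReal.toReal_ofReal (by positivity), smul_eq_mul]

theorem fst_resc : (resc d p r V).fst =
    ENNReal.ofReal (r⁻¹ ^ d) • V.fst.map fun y => r⁻¹ • (y - p) := by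
  rw [resc, Measure.fst, Measure.map_smul, Measure.map_map measurable_fst (by fun_prop), Measure.fst,
    Measure.map_map (by fun_prop) measurable_fst]
  rfl

theorem integral_fst_resc (hr : 0 < r) {φ : E → ℝ} (hφ : Continuous φ) :
    ∫ y, φ y ∂(resc d p r V).fst = ∫ y, r⁻¹ ^ d * φ (r⁻¹ • (y - p)) ∂V.fst := by
  rw [fst_resc, integral_smul_measure, integral_map (by fun_prop) hφ.aestronglyMeasurable,
    ENNReal.toReal_ofReal (by positivity), smul_eq_mul, integral_const_mul]

theorem th_resc (hr : 0 < r) (q : E) (ρ : ℝ) :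
    th d (resc d p r V).fst q ρ = th d V.fst (p + r • q) (r * ρ) := by
  simp only [th, integral_fst_resc hr (continuous_gk d q ρ), gk_resc d p q hr]

theorem hx_resc (hr : 0 < r) (q : E) (ρ : ℝ) (e : E) :
    hx d (resc d p r V).fst q ρ e = hx d V.fst (p + r • q) (r * ρ) e := by
  simp only [hx, integral_fst_resc hr (continuous_hx d q ρ e)]
  refine integral_congr_ae (Eventually.of_forall fun y => ?_)
  have e1 : y - (p + r • q) = r • (r⁻¹ • (y - p) - q) := by
    rw [smul_sub, smul_inv_smul₀ hr.ne']; abel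
  simp only []
  rw [mul_left_comm 2 r ρ, gk_resc d p q hr, e1, inner_smul_right, mul_pow, mul_pow,
    mul_div_mul_left _ _ (by positivity)]
  ring

theorem ae_resc {P : E × E → Prop} (hP : MeasurableSet {z | P z})
    (h : ∀ᵐ z ∂V, P (r⁻¹ • (z.1 - p), z.2)) : ∀ᵐ z ∂resc d p r V, P z :=
  Measure.ae_smul_measure ((ae_map_iff (by fun_prop) hP).2 h) _

theorem mem_support_resc (hr : 0 < r) {q : E} :
    q ∈ (resc d p r V).fst.support ↔ p + r • q ∈ V.fst.support := by
  let T : E ≃ₜ E := (Homeomorph.subRight p).trans (Homeomorph.smulOfNeZero r⁻¹ (inv_ne_zero hr.ne'))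
  have hT : (fun y => r⁻¹ • (y - p)) = T.toMeasurableEquiv := rfl
  have hq : T (p + r • q) = q := by
    change r⁻¹ • (p + r • q - p) = q
    rw [add_sub_cancel_left, inv_smul_smul₀ hr.ne']
  have h0 : 0 < ENNReal.ofReal (r⁻¹ ^ d) := ENNReal.ofReal_pos.2 (by positivity)
  simp only [fst_resc, Measure.mem_support_iff_forall, Measure.smul_apply, smul_eq_mul, hT,
    MeasurableEquiv.map_apply, ENNReal.mul_pos_iff, h0, true_and]
  refine ⟨fun h U hU => ?_, fun h U hU => h _ (T.continuous.continuousAt.preimage_mem_nhds (hq.symm ▸ hU))⟩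
  have := h (T '' U) (hq ▸ T.isOpenMap.image_mem_nhds hU)
  rwa [Homeomorph.toMeasurableEquiv_coe, T.preimage_image] at this

theorem SV0.resc (hV : SV0 d V) (p : E) (hr : 0 < r) : SV0 d (resc d p r V) where
  unit := ae_resc (measurableSet_eq_fun (by fun_prop) measurable_const) hV.unit
  integ q ρ hρ := by
    rw [fst_resc]
    refine Integrable.smul_measure ?_ ENNReal.ofReal_ne_top
    refine (integrable_map_measure (continuous_gk d q ρ).aestronglyMeasurable (by fun_prop)).2 ?_
    refine ((hV.integ (p + r • q) (r * ρ) (by positivity)).const_mul (r ^ d)).congr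
      (Eventually.of_forall fun y => ?_)
    simp only [Function.comp, gk_resc d p q hr]
    rw [← mul_assoc, ← mul_pow, mul_inv_cancel₀ hr.ne', one_pow, one_mul]
  stat X hX hc := by
    let T : E ≃ₜ E := (Homeomorph.subRight p).trans (Homeomorph.smulOfNeZero r⁻¹ (inv_ne_zero hr.ne'))
    have h1 : ContDiff ℝ 1 fun y => r • X (r⁻¹ • (y - p)) := by fun_prop
    have h2 : HasCompactSupport fun y => r • X (r⁻¹ • (y - p)) :=
      (hc.comp_homeomorph T).smul_left (f := fun _ => r)
    have h3 : ∀ y, fderiv ℝ (fun y => r • X (r⁻¹ • (y - p))) y = fderiv ℝ X (r⁻¹ • (y - p)) := fun y => by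
      have a1 : HasFDerivAt (fun y : E => r⁻¹ • (y - p)) (r⁻¹ • ContinuousLinearMap.id ℝ E) y :=
        ((hasFDerivAt_id y).sub_const p).const_smul r⁻¹
      have a2 := ((((hX.differentiable one_ne_zero) _).hasFDerivAt.comp y a1).const_smul r).fderiv
      refine a2.trans ?_
      ext v
      simp [smul_smul, mul_inv_cancel₀ hr.ne']
    have := hV.stat _ h1 h2
    rw [integral_resc hr (continuous_divT hX)]
    simp only [divT, h3] at this ⊢
    rw [this, mul_zero]

theorem SV.resc {Θ : ℝ} (hV : SV d V Θ) (p : E) (hr : 0 < r) : SV d (resc d p r V) Θ where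
  toSV0 := SV0.resc hV.toSV0 p hr
  upper q ρ hρ := by rw [th_resc hr]; exact hV.upper _ _ (by positivity)

theorem Lower.resc {c : ℝ} (hV : Lower d V.fst c) (p : E) (hr : 0 < r) :
    Lower d (resc d p r V).fst c := fun q hq ρ hρ => by
  rw [th_resc hr]
  exact hV _ ((mem_support_resc hr).1 hq) _ (by positivity)

end Crest.Agent.R246.C2
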