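import Crest.Agent.R246.C2.Resc

/-!
# Row 246, block C2: rigidity in the monotonicity formula
-/

set_option autoImplicit false
set_option linter.unusedSectionVars false

open MeasureTheory Metric Filter Topology Set Module
open scoped RealInnerProductSpace ENNReal ContDiff Real

noncomputable section

namespace Crest.Agent.R246.C2

variable {E : Type} [NormedAddCommGroup E] [InnerProductSpace ℝ E] [FiniteDimensional ℝ E]
  [MeasurableSpace E] [BorelSpace E] {d : ℕ} {V : Measure (E × E)}

theorem inner_sq_le {w : E} (hw : ‖w‖ ≤ 1) (v : E) : ⟪w, v⟫ ^ 2 ≤ ‖v‖ ^ 2 := by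
  rw [← sq_abs]
  have h := (abs_real_inner_le_norm w v).trans (mul_le_of_le_one_left (norm_nonneg v) hw)
  gcongr

theorem th_mono (hB : Bas) (hE : finrank ℝ E = d + 1) (hV : SV0 d V) (p : E) {a b : ℝ} (ha : 0 < a)
    (hab : a ≤ b) : th d V.fst p a ≤ th d V.fst p b := (hB.mono E d hE V hV p a b ha hab).2

/-- equality in the monotonicity formula -/
theorem inner_eq_zero (hB : Bas) (hE : finrank ℝ E = d + 1) (hV : SV0 d V) (q : E)
    (h : th d V.fst q 2 ≤ th d V.fst q 1) : ∀ᵐ z ∂V, ⟪z.2, z.1 - q⟫ = 0 := by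
  have h1 := (hB.mono E d hE V hV q 1 2 one_pos one_le_two).1
  have hu : ∀ᵐ z ∂V, ‖z.2‖ ≤ 1 := hV.unit.mono fun z hz => hz.le
  obtain ⟨K, -, hK⟩ := sq_gk_le_zero d q q (r := 3) (by norm_num)
  have hc : ContinuousOn (fun r : ℝ => ∫ z, ⟪z.2, z.1 - q⟫ ^ 2 / r ^ 3 * gk d q r z.1 ∂V) (Icc 1 2) := by
    refine continuousOn_of_dominated (bound := fun z => 3 ^ d * K * gk d 0 (4 * 3) z.1) (fun r _ => ?_)
      (fun r hr => hu.mono fun z hz => ?_)
      (((integrable_fst (continuous_gk d 0 (4 * 3))).1 (hV.integ 0 (4 * 3) (by norm_num))).const_mul _)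
      (Eventually.of_forall fun z => ?_)
    · have b1 : Continuous fun z : E × E => gk d q r z.1 := (continuous_gk d q r).comp continuous_fst
      have b2 : Continuous fun z : E × E => ⟪z.2, z.1 - q⟫ ^ 2 / r ^ 3 := by fun_prop
      exact (b2.mul b1).aestronglyMeasurable
    · have hr0 : 0 < r := one_pos.trans_le hr.1
      have a1 := gk_le_gk d q q hr0 (R := 3) (by linarith [hr.2]) z.1
      simp only [sub_self, norm_zero, ne_eq, OfNat.ofNat_ne_zero, not_false_eq_true, zero_pow, zero_div,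
        Real.exp_zero, mul_one] at a1
      have a2 := (gk_pos d q hr0 z.1).le
      have a3 := (gk_pos d q (r := 3) (by norm_num) z.1).le
      rw [Real.norm_of_nonneg (by positivity)]
      calc _ ≤ (1 + ‖z.1 - q‖ ^ 2) * (3 ^ d * gk d q 3 z.1) := by
            gcongr
            · exact (div_le_self (by positivity) (one_le_pow₀ hr.1)).trans
                ((inner_sq_le hz _).trans (by linarith))
            · refine a1.trans ?_
              gcongr
              exact div_le_self (by norm_num) hr.1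
        _ ≤ _ := by
            rw [mul_left_comm, mul_assoc]
            exact mul_le_mul_of_nonneg_left (hK _) (by positivity)
    · intro r hr
      have hr0 : r ≠ 0 := (one_pos.trans_le hr.1).ne'
      have hπ : √(2 * π) ≠ 0 := (Real.sqrt_pos.2 (by have := Real.pi_pos; positivity)).ne'
      unfold gk
      exact ContinuousAt.continuousWithinAt (by fun_prop (disch := positivity))
  obtain ⟨r, hr, h0⟩ : ∃ r ∈ Ioo (1 : ℝ) 2, ∫ z, ⟪z.2, z.1 - q⟫ ^ 2 / r ^ 3 * gk d q r z.1 ∂V = 0 := by
    by_contra hn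
    push Not at hn
    have := intervalIntegral.intervalIntegral_pos_of_pos_on (hc.intervalIntegrable_of_Icc one_le_two)
      (fun r hr => lt_of_le_of_ne (integral_nonneg fun z => by
        have hr0 : 0 < r := one_pos.trans hr.1
        have := (gk_pos d q hr0 z.1).le
        positivity) (hn r hr).symm) one_lt_two
    linarith
  have hr0 : 0 < r := one_pos.trans hr.1
  filter_upwards [ae_eq_zero_of_integral hu hV.integ (f := fun z => ⟪z.2, z.1 - q⟫ ^ 2 / r ^ 3) (by fun_prop)
    (M := 1) q (fun z hz => ⟨by positivity, (div_le_self (by positivity) (one_le_pow₀ hr.1.le)).trans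
      ((inner_sq_le hz _).trans (by linarith))⟩) q hr0 h0] with z hz
  simpa [hr0.ne'] using hz

/-- the density at infinity does not depend on the centre -/
theorem th_le_of_zero (hB : Bas) (hE : finrank ℝ E = d + 1) (hV : SV0 d V) {θ : ℝ}
    (h : ∀ r, 0 < r → th d V.fst 0 r ≤ θ) (q : E) {r : ℝ} (hr : 0 < r) : th d V.fst q r ≤ θ := by
  refine le_of_forall_const (d := d) one_pos fun ρ hρ hρ1 ε hε => ?_
  have h1 : 0 < r / ρ + ‖q‖ / ε := by positivity
  set S := r / ρ + ‖q‖ / ε with hS
  have h2 : r ≤ ρ * S := by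
    rw [hS, mul_add, mul_div_cancel₀ _ hρ.ne']
    exact le_add_of_nonneg_right (by positivity)
  have h3 : ‖q‖ ≤ ε * S := by
    rw [hS, mul_add, mul_div_cancel₀ _ hε.ne']
    exact le_add_of_nonneg_left (by positivity)
  refine (th_mono hB hE hV q hr h2).trans ((th_le_th q 0 (by positivity) (R := S) (by nlinarith)
    (hV.integ 0 S h1)).trans ?_)
  have h4 : 0 < 1 ^ 2 - ρ ^ 2 := by nlinarith
  rw [show S / (ρ * S) = 1 / ρ by field_simp, sub_zero]
  refine mul_le_mul (mul_le_mul_of_nonneg_left (Real.exp_le_exp.2 ?_) (by positivity)) (h S h1)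
    (th_nonneg _ _ _ h1) (by positivity)
  rw [show 2 * (S ^ 2 - (ρ * S) ^ 2) = 2 * (1 ^ 2 - ρ ^ 2) * S ^ 2 by ring,
    div_le_div_iff₀ (by positivity) (by positivity)]
  have h5 : ‖q‖ ^ 2 ≤ (ε * S) ^ 2 := by gcongr
  nlinarith

/-- a cone with respect to every point of its support is flat -/
theorem flat_of_forall (hV : SV0 d V) (h0 : (0 : E) ∈ V.fst.support)
    (h : ∀ q ∈ V.fst.support, ∀ᵐ z ∂V, ⟪z.2, z.1 - q⟫ = 0) : Flat V.fst.support := by
  obtain ⟨T, h1, hT, h2⟩ := (TopologicalSpace.IsSeparable.of_separableSpace V.fst.support).exists_countable_dense_subset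
  have : NeZero V := ⟨by rintro rfl; simp at h0⟩
  obtain ⟨z, hz, hz0, hzT⟩ := (hV.unit.and ((h 0 h0).and
    ((ae_ball_iff hT).2 fun q hq => h q (h1 hq)))).exists
  refine ⟨z.2, hz, fun y hy => ?_⟩
  refine closure_minimal (t := {y | ⟪z.2, y⟫ = 0}) (fun q hq => ?_)
    (isClosed_eq (by fun_prop) continuous_const) (h2 hy)
  have := hzT q hq
  rw [sub_zero] at hz0
  rwa [inner_sub_right, hz0, zero_sub, neg_eq_zero] at this

theorem hx_eq_zero {μ : Measure E} {e p : E} (h : ∀ y ∈ μ.support, ⟪e, y⟫ = 0) (hp : ⟪e, p⟫ = 0)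
    (r : ℝ) : hx d μ p r e = 0 := by
  refine integral_eq_zero_of_ae ?_
  filter_upwards [μ.support_mem_ae] with y hy
  simp [inner_sub_right, h y hy, hp]

/-- no isolated points -/
theorem exists_near {Θ : ℝ} (hd : 1 ≤ d) (hV : SV d V Θ) {q : E} (hq : q ∈ V.fst.support) {ε : ℝ}
    (hε : 0 < ε) : ∃ p ∈ V.fst.support, p ≠ q ∧ dist p q < ε := by
  by_contra hn
  push Not at hn
  have h1 : 0 < V.fst {q} := by
    refine ((Measure.mem_support_iff_forall _).1 hq _ (ball_mem_nhds q hε)).trans_le (measure_mono_ae ?_)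
    filter_upwards [V.fst.support_mem_ae] with y hy hy'
    by_contra h
    exact (hn y hy h).not_gt hy'
  have h2 : V.fst {q} < ⊤ := by
    refine (measure_mono ?_).trans_lt ((hV.integ q 1 one_pos).measure_norm_ge_lt_top (gk_pos d q one_pos q))
    intro y hy
    rw [mem_singleton_iff.1 hy]
    exact le_abs_self (gk d q 1 q)
  have h3 : 0 < V.fst.real {q} := ENNReal.toReal_pos h1.ne' h2.ne
  have hπ : 0 < √(2 * π) := Real.sqrt_pos.2 (by have := Real.pi_pos; positivity)
  set a := V.fst.real {q}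
  have h4 : 0 < 1 + |Θ| / a := by positivity
  have h5 : 0 < (√(2 * π) * (1 + |Θ| / a))⁻¹ := by positivity
  have h6 := (setIntegral_le_integral (s := {q}) (hV.integ q _ h5)
    (Eventually.of_forall fun y => (gk_pos d q h5 y).le)).trans (hV.upper q _ h5)
  rw [integral_singleton, gk, sub_self, norm_zero, mul_inv, inv_inv, inv_mul_cancel_left₀ hπ.ne'] at h6
  simp only [ne_eq, OfNat.ofNat_ne_zero, not_false_eq_true, zero_pow, neg_zero, zero_div, Real.exp_zero,
    mul_one, smul_eq_mul] at h6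
  have h7 := le_self_pow₀ (a := 1 + |Θ| / a) (le_add_of_nonneg_right (by positivity)) (n := d) (by omega)
  have h8 : a * (1 + |Θ| / a) = a + |Θ| := by field_simp
  nlinarith [le_abs_self Θ]

end Crest.Agent.R246.C2
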