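import Crest.Agent.R246.C2.Rig
import Crest.Agent.R246.C1.Cone

/-!
# Row 246, block C2: slicing a translation invariant varifold
-/

set_option autoImplicit false
set_option linter.unusedSectionVars false

open MeasureTheory Metric Filter Topology Set Module
open scoped RealInnerProductSpace ENNReal ContDiff Real

noncomputable section

namespace Crest.Agent.R246.C2

variable {E : Type} [NormedAddCommGroup E] [InnerProductSpace ℝ E] [FiniteDimensional ℝ E]
  [MeasurableSpace E] [BorelSpace E]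

/-- projection onto `e^⊥` -/
def pr (e : E) : E →L[ℝ] (ℝ ∙ e)ᗮ := (ℝ ∙ e)ᗮ.orthogonalProjectionOnto

/-- the slice of `V` orthogonal to `e` -/
def slc (e : E) (V : Measure (E × E)) : Measure ((ℝ ∙ e)ᗮ × (ℝ ∙ e)ᗮ) :=
  (V.withDensity fun z => ENNReal.ofReal (gk 1 (0 : ℝ) 1 ⟪e, z.1⟫)).map fun z => (pr e z.1, pr e z.2)

variable {d : ℕ} {e : E} {V : Measure (E × E)}

theorem inner_pr (y : E) (x : (ℝ ∙ e)ᗮ) : ⟪pr e y, x⟫ = ⟪y, (x : E)⟫ :=
  Submodule.inner_orthogonalProjectionOnto_eq_of_mem_right x y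

theorem pr_coe (x : (ℝ ∙ e)ᗮ) : pr e (x : E) = x := Submodule.orthogonalProjectionOnto_mem_subspace_eq_self x

theorem pr_self : pr e e = 0 :=
  Submodule.orthogonalProjectionOnto_orthogonalComplement_singleton_eq_zero e

theorem pr_add (y : E) (s : ℝ) : pr e (y + s • e) = pr e y := by simp [pr_self]

theorem coe_pr (he : ‖e‖ = 1) (y : E) : (pr e y : E) = y + (-⟪e, y⟫) • e := by
  have h : y + (-⟪e, y⟫) • e ∈ (ℝ ∙ e)ᗮ := Submodule.mem_orthogonal_singleton_iff_inner_right.2 (by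
    rw [inner_add_right, inner_smul_right, real_inner_self_eq_norm_sq, he]; ring)
  rw [← pr_add y (-⟪e, y⟫)]
  exact congrArg Subtype.val (pr_coe ⟨_, h⟩)

theorem norm_pr_le (y : E) : ‖pr e y‖ ≤ ‖y‖ := Submodule.norm_orthogonalProjectionOnto_apply_le _ y

theorem gk_prod (he : ‖e‖ = 1) (x : (ℝ ∙ e)ᗮ) (r : ℝ) (y : E) :
    gk (d + 1) (x : E) r y = gk 1 (0 : ℝ) r ⟪e, y⟫ * gk d x r (pr e y) := by
  have h : y - x = ((pr e y - x : (ℝ ∙ e)ᗮ) : E) + ⟪e, y⟫ • e := by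
    rw [Submodule.coe_sub, coe_pr he, neg_smul]; abel
  unfold gk
  rw [h, norm_sq_line he, mul_mul_mul_comm, ← Real.exp_add, sub_zero, Real.norm_eq_abs, sq_abs]
  congr 1
  · ring
  · congr 1; ring

theorem measurable_g (r : ℝ) : Measurable fun t : ℝ => ENNReal.ofReal (gk 1 (0 : ℝ) r t) :=
  (continuous_gk 1 0 r).measurable.ennreal_ofReal

theorem lintegral_g {r : ℝ} (hr : 0 < r) : ∫⁻ t : ℝ, ENNReal.ofReal (gk 1 (0 : ℝ) r t) = 1 := by
  rw [← ofReal_integral_eq_lintegral_ofReal (integrable_gk 1 0 hr)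
    (Eventually.of_forall fun t => (gk_pos 1 0 hr t).le)]
  have := integral_gk (0 : ℝ) hr
  rw [finrank_self] at this
  rw [this, ENNReal.ofReal_one]

/-- the slice does not depend on the weight -/
theorem lintegral_weight (he : ‖e‖ = 1) {μ : Measure E} [SFinite μ]
    (hμ : ∀ s : ℝ, μ.map (fun y => y + s • e) = μ) {F : (ℝ ∙ e)ᗮ → ℝ≥0∞} (hF : Measurable F)
    {g h : ℝ → ℝ≥0∞} (hg : Measurable g) (hh : Measurable h) (g1 : ∫⁻ t, g t = 1) (h1 : ∫⁻ t, h t = 1)
    (g2 : ∀ t, g (-t) = g t) (h2 : ∀ t, h (-t) = h t) :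
    ∫⁻ y, g ⟪e, y⟫ * F (pr e y) ∂μ = ∫⁻ y, h ⟪e, y⟫ * F (pr e y) ∂μ := by
  have hp : Measurable (pr e) := (pr e).continuous.measurable
  have key : ∀ g h : ℝ → ℝ≥0∞, Measurable g → Measurable h → ∫⁻ t, g t = 1 →
      ∫⁻ y, h ⟪e, y⟫ * F (pr e y) ∂μ = ∫⁻ y, (∫⁻ s, g s * h (⟪e, y⟫ + s)) * F (pr e y) ∂μ := by
    intro g h hg hh g1
    have a1 : ∀ s : ℝ, ∫⁻ y, h ⟪e, y⟫ * F (pr e y) ∂μ = ∫⁻ y, h (⟪e, y⟫ + s) * F (pr e y) ∂μ := by
      intro s
      conv_lhs => rw [← hμ s]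
      rw [lintegral_map (by fun_prop) (by fun_prop)]
      simp only [pr_add, inner_add_right, inner_smul_right, real_inner_self_eq_norm_sq, he, one_pow, mul_one]
    calc _ = ∫⁻ s, g s * ∫⁻ y, h ⟪e, y⟫ * F (pr e y) ∂μ := by rw [lintegral_mul_const _ hg, g1, one_mul]
      _ = ∫⁻ s, ∫⁻ y, g s * h (⟪e, y⟫ + s) * F (pr e y) ∂μ := by
          refine lintegral_congr fun s => ?_
          rw [a1 s, ← lintegral_const_mul _ (by fun_prop)]
          simp only [mul_assoc]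
      _ = ∫⁻ y, (∫⁻ s, g s * h (⟪e, y⟫ + s) * F (pr e y)) ∂μ :=
          lintegral_lintegral_swap (Measurable.aemeasurable (by unfold Function.uncurry; fun_prop))
      _ = _ := lintegral_congr fun y => lintegral_mul_const _ (by fun_prop)
  rw [key h g hh hg h1, key g h hg hh g1]
  refine lintegral_congr fun y => ?_
  congr 1
  rw [← lintegral_sub_left_eq_self _ (-⟪e, y⟫)]
  refine lintegral_congr fun s => ?_
  rw [mul_comm, ← g2, ← h2]
  congr 2 <;> ring

theorem lintegral_slc {F : (ℝ ∙ e)ᗮ × (ℝ ∙ e)ᗮ → ℝ≥0∞} (hF : Measurable F) :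
    ∫⁻ z, F z ∂slc e V = ∫⁻ z, ENNReal.ofReal (gk 1 (0 : ℝ) 1 ⟪e, z.1⟫) * F (pr e z.1, pr e z.2) ∂V := by
  have hp : Measurable (pr e) := (pr e).continuous.measurable
  have := (continuous_gk 1 (0 : ℝ) 1).measurable
  rw [slc, lintegral_map hF (by fun_prop), lintegral_withDensity_eq_lintegral_mul _ (by fun_prop) (by fun_prop)]
  rfl

theorem integral_slc {φ : (ℝ ∙ e)ᗮ × (ℝ ∙ e)ᗮ → ℝ} (hφ : Continuous φ) :
    ∫ z, φ z ∂slc e V = ∫ z, gk 1 (0 : ℝ) 1 ⟪e, z.1⟫ * φ (pr e z.1, pr e z.2) ∂V := by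
  have hp : Measurable (pr e) := (pr e).continuous.measurable
  have := (continuous_gk 1 (0 : ℝ) 1).measurable
  rw [slc, integral_map (by fun_prop) hφ.aestronglyMeasurable,
    integral_withDensity_eq_integral_toReal_smul (by fun_prop) (by simp)]
  simp only [ENNReal.toReal_ofReal (gk_pos 1 (0 : ℝ) one_pos _).le, smul_eq_mul]

theorem ae_slc {P : (ℝ ∙ e)ᗮ × (ℝ ∙ e)ᗮ → Prop} (hP : MeasurableSet {z | P z})
    (h : ∀ᵐ z ∂V, P (pr e z.1, pr e z.2)) : ∀ᵐ z ∂slc e V, P z := by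
  have hp : Measurable (pr e) := (pr e).continuous.measurable
  exact (ae_map_iff (by fun_prop) hP).2 (withDensity_absolutelyContinuous _ _ h)

/-- the hypotheses of the slicing lemmas -/
structure Inv (d : ℕ) (e : E) (V : Measure (E × E)) : Prop where
  he : ‖e‖ = 1
  hE : finrank ℝ E = d + 2
  sv : SV0 (d + 1) V
  orth : ∀ᵐ z ∂V, ⟪z.2, e⟫ = 0

theorem Inv.lintegral_fst (h : Inv d e V) {F : (ℝ ∙ e)ᗮ → ℝ≥0∞} (hF : Measurable F) {r : ℝ} (hr : 0 < r) :
    ∫⁻ x, F x ∂(slc e V).fst = ∫⁻ y, ENNReal.ofReal (gk 1 (0 : ℝ) r ⟪e, y⟫) * F (pr e y) ∂V.fst := by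
  have hp : Measurable (pr e) := (pr e).continuous.measurable
  have := (continuous_gk 1 (0 : ℝ) 1).measurable
  have := C1.finiteOnCompacts_of_gk one_pos (h.sv.integ 0 1 one_pos)
  rw [← lintegral_weight h.he (C1.map_add_eq h.hE h.sv h.orth) hF (measurable_g 1) (measurable_g r)
    (lintegral_g one_pos) (lintegral_g hr) (by simp [gk]) (by simp [gk]), Measure.fst,
    lintegral_map hF measurable_fst, lintegral_slc (by fun_prop), Measure.fst,
    lintegral_map (by fun_prop) measurable_fst]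

theorem Inv.integral_fst (h : Inv d e V) {F : (ℝ ∙ e)ᗮ → ℝ} (hF : Continuous F) (h0 : ∀ x, 0 ≤ F x)
    {r : ℝ} (hr : 0 < r) {G : E → ℝ} (hG : ∀ y, G y = gk 1 (0 : ℝ) r ⟪e, y⟫ * F (pr e y)) :
    ∫ x, F x ∂(slc e V).fst = ∫ y, G y ∂V.fst ∧ (Integrable G V.fst → Integrable F (slc e V).fst) := by
  have h1 : ∫⁻ x, ENNReal.ofReal (F x) ∂(slc e V).fst = ∫⁻ y, ENNReal.ofReal (G y) ∂V.fst := by
    rw [h.lintegral_fst hF.measurable.ennreal_ofReal hr]
    simp only [hG, ENNReal.ofReal_mul (gk_pos 1 (0 : ℝ) hr _).le]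
  have h2 : Continuous G := by
    have := continuous_gk 1 (0 : ℝ) r
    rw [funext hG]
    fun_prop
  have h3 : 0 ≤ᵐ[V.fst] G := Eventually.of_forall fun y => hG y ▸ mul_nonneg (gk_pos 1 (0 : ℝ) hr _).le (h0 _)
  refine ⟨?_, fun hi => ?_⟩
  · rw [integral_eq_lintegral_of_nonneg_ae (Eventually.of_forall h0) hF.aestronglyMeasurable,
      integral_eq_lintegral_of_nonneg_ae h3 h2.aestronglyMeasurable, h1]
  · rw [← lintegral_ofReal_ne_top_iff_integrable hF.aestronglyMeasurable (Eventually.of_forall h0), h1]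
    exact (lintegral_ofReal_ne_top_iff_integrable h2.aestronglyMeasurable h3).2 hi

theorem Inv.th (h : Inv d e V) (x : (ℝ ∙ e)ᗮ) {r : ℝ} (hr : 0 < r) :
    th d (slc e V).fst x r = th (d + 1) V.fst x r :=
  (h.integral_fst (continuous_gk d x r) (fun y => (gk_pos d x hr y).le) hr (gk_prod h.he x r)).1

theorem Inv.hx (h : Inv d e V) (x : (ℝ ∙ e)ᗮ) {r : ℝ} (hr : 0 < r) (a : (ℝ ∙ e)ᗮ) :
    hx d (slc e V).fst x r a = hx (d + 1) V.fst x r a := by
  have h2 : 0 < 2 * r := by positivity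
  refine (h.integral_fst (continuous_hx d x r a) (fun y => mul_nonneg (by positivity) (gk_pos d x h2 y).le)
    h2 fun y => ?_).1
  rw [gk_prod h.he, real_inner_comm, real_inner_comm _ a, ← inner_pr, map_sub, pr_coe]
  ring

theorem Inv.mem_support_add (h : Inv d e V) {y : E} (hy : y ∈ V.fst.support) (s : ℝ) :
    y + s • e ∈ V.fst.support := by
  rw [Measure.mem_support_iff_forall] at hy ⊢
  intro U hU
  have hc : Continuous fun y : E => y + s • e := by fun_prop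
  have := (hy _ (hc.continuousAt.preimage_mem_nhds hU)).trans_le (Measure.le_map_apply hc.aemeasurable U)
  rwa [C1.map_add_eq h.hE h.sv h.orth] at this

theorem Inv.coe_mem_support (h : Inv d e V) {x : (ℝ ∙ e)ᗮ} (hx : x ∈ (slc e V).fst.support) :
    (x : E) ∈ V.fst.support := by
  have hc : IsClosed {x : (ℝ ∙ e)ᗮ | (x : E) ∈ V.fst.support} :=
    V.fst.isClosed_support.preimage continuous_subtype_val
  refine Measure.support_subset_of_isClosed hc ?_ hx
  refine (ae_map_iff measurable_fst.aemeasurable hc.measurableSet).2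
    (ae_slc (hc.preimage continuous_fst).measurableSet ?_)
  filter_upwards [ae_of_ae_map measurable_fst.aemeasurable V.fst.support_mem_ae] with z hz
  rw [coe_pr h.he]
  exact h.mem_support_add hz _

theorem dom_of_compact (d : ℕ) {F : Type} [NormedAddCommGroup F] {f : E → F} (hf : Continuous f)
    (hc : HasCompactSupport f) : ∃ K : ℝ, 0 ≤ K ∧ ∀ y, ‖f y‖ ≤ K * gk d 0 1 y := by
  obtain ⟨M, hM⟩ := hf.bounded_above_of_compact_support hc
  obtain ⟨R, hR⟩ := hc.isCompact.isBounded.subset_ball 0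
  obtain ⟨K, hK⟩ := le_gk_of_bdd (E := E) d R M
  refine ⟨|K|, abs_nonneg _, fun y => (hK y _ (hM y) fun hy => ?_).trans
    (mul_le_mul_of_nonneg_right (le_abs_self _) (gk_pos d 0 one_pos y).le)⟩
  rw [image_eq_zero_of_notMem_tsupport (f := f) fun h => by simpa [not_lt.2 hy] using hR h, norm_zero]

theorem Inv.stat (hB : Bas) (h : Inv d e V) : Stat (slc e V) := by
  intro X hX hc
  let g : E → ℝ := fun y => gk 1 (0 : ℝ) 1 ⟪e, y⟫
  let Y : E → E := fun y => (X (pr e y) : E)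
  have g0 : ∀ y, 0 < g y := fun y => gk_pos 1 (0 : ℝ) one_pos _
  have hg : ∀ y, HasFDerivAt g ((-(g y * ⟪e, y⟫)) • innerSL ℝ e) y := fun y => by
    have := (C1.hasFDerivAt_gk 1 (0 : ℝ) 1 ⟪e, y⟫).comp y (innerSL ℝ e).hasFDerivAt
    refine this.congr_fderiv ?_
    ext v
    simp [g]
    ring
  have hY : ∀ y, HasFDerivAt Y ((ℝ ∙ e)ᗮ.subtypeL ∘L fderiv ℝ X (pr e y) ∘L pr e) y := fun y =>
    (ℝ ∙ e)ᗮ.subtypeL.hasFDerivAt.comp y
      (((hX.differentiable one_ne_zero) _).hasFDerivAt.comp y (pr e).hasFDerivAt)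
  obtain ⟨K₁, k1, hK₁⟩ := dom_of_compact d hX.continuous hc
  obtain ⟨K₂, k2, hK₂⟩ := dom_of_compact d (hX.continuous_fderiv one_ne_zero) (hc.fderiv (𝕜 := ℝ))
  obtain ⟨K₃, k3, hK₃⟩ := sq_gk_le_zero (d + 1) (0 : E) 0 one_pos
  have hp : ∀ y, gk (d + 1) (0 : E) 1 y = g y * gk d 0 1 (pr e y) := gk_prod h.he 0 1
  have hd : ∀ y (a : ℝ), a ≤ g y * ((K₁ + K₂) * gk d 0 1 (pr e y)) * (1 + ‖y‖ ^ 2) →
      a ≤ (K₁ + K₂) * K₃ * gk (d + 1) 0 (4 * 1) y := fun y a ha => by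
    have := mul_le_mul_of_nonneg_left (hK₃ y) (add_nonneg k1 k2)
    rw [hp, sub_zero] at this
    linarith
  have key := hB.statG E (d + 1) V h.sv (fun y => g y • Y y) ((K₁ + K₂) * K₃) (4 * 1) (by norm_num)
    (((contDiff_gk 1 (0 : ℝ) 1).comp (innerSL ℝ e).contDiff).smul
      ((ℝ ∙ e)ᗮ.subtypeL.contDiff.comp (hX.comp (pr e).contDiff))) (fun y => hd y _ ?_) fun y => hd y _ ?_
  · rw [integral_slc (continuous_divT hX)]
    refine Eq.trans (integral_congr_ae (h.orth.mono fun z hz => ?_)) key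
    simp only []
    rw [C1.divT_smul (hg z.1) (hY z.1).differentiableAt]
    have a1 : ⟪e, Y z.1⟫ = 0 := inner_orth _
    have a2 : trc ((ℝ ∙ e)ᗮ.subtypeL ∘L fderiv ℝ X (pr e z.1) ∘L pr e) = trc (fderiv ℝ X (pr e z.1)) := by
      unfold trc
      refine (LinearMap.trace_comp_comm' (fderiv ℝ X (pr e z.1) ∘L pr e : E →L[ℝ] (ℝ ∙ e)ᗮ).toLinearMap
        (ℝ ∙ e)ᗮ.subtype).trans ?_
      congr 1
      ext1 v
      simp [pr_coe]
    rw [real_inner_comm] at hz
    have a3 : ∀ v, ((-(g z.1 * ⟪e, z.1⟫)) • innerSL ℝ e) v = -(g z.1 * ⟪e, z.1⟫) * ⟪e, v⟫ := fun v => rfl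
    rw [a3, a3, a1, hz, divT, divT, (hY z.1).fderiv, a2, inner_pr]
    simp [g]
  · have := g0 y
    have := (gk_pos d 0 one_pos (pr e y)).le
    rw [norm_smul, Real.norm_of_nonneg (g0 y).le]
    refine le_trans ?_ (le_mul_of_one_le_right (by positivity) (le_add_of_nonneg_right (by positivity)))
    exact mul_le_mul_of_nonneg_left ((hK₁ _).trans (by nlinarith)) (g0 y).le
  · have := g0 y
    have := (gk_pos d 0 one_pos (pr e y)).le
    rw [show (fun y => g y • Y y) = g • Y from rfl, ((hg y).smul (hY y)).fderiv]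
    refine (norm_add_le _ _).trans ?_
    have a1 : ‖(ℝ ∙ e)ᗮ.subtypeL ∘L fderiv ℝ X (pr e y) ∘L pr e‖ ≤ K₂ * gk d 0 1 (pr e y) :=
      ContinuousLinearMap.opNorm_le_bound _ (by positivity) fun v =>
        ((fderiv ℝ X (pr e y)).le_opNorm (pr e v)).trans (mul_le_mul (hK₂ _) (norm_pr_le v) (norm_nonneg _) (by positivity))
    have a2 : |⟪e, y⟫| ≤ 1 + ‖y‖ ^ 2 := by
      have := abs_real_inner_le_norm e y
      rw [h.he] at this
      nlinarith [sq_nonneg (‖y‖ - 1)]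
    have a3 : ‖Y y‖ ≤ K₁ * gk d 0 1 (pr e y) := hK₁ _
    rw [norm_smul, ContinuousLinearMap.norm_smulRight_apply, norm_smul, innerSL_apply_norm, h.he, norm_neg,
      norm_mul, Real.norm_of_nonneg (g0 y).le, Real.norm_eq_abs, mul_one]
    calc _ ≤ g y * (K₂ * gk d 0 1 (pr e y) * (1 + ‖y‖ ^ 2)) + g y * (1 + ‖y‖ ^ 2) * (K₁ * gk d 0 1 (pr e y)) := by
          gcongr
          exact a1.trans (le_mul_of_one_le_right (by positivity) (le_add_of_nonneg_right (by positivity)))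
      _ = _ := by ring

theorem Inv.sv0 (hB : Bas) (h : Inv d e V) : SV0 d (slc e V) where
  unit := ae_slc (measurableSet_eq_fun (by fun_prop) measurable_const) (by
    filter_upwards [h.sv.unit, h.orth] with z h1 h2
    rw [real_inner_comm] at h2
    rw [← h1, Submodule.coe_norm, coe_pr h.he, h2]
    simp)
  integ x r hr := (h.integral_fst (continuous_gk d x r) (fun y => (gk_pos d x hr y).le) hr
    (gk_prod h.he x r)).2 (h.sv.integ _ r hr)
  stat := h.stat hB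

theorem Inv.vcone (h : Inv d e V) (hc : VCone V) : VCone (slc e V) :=
  ae_slc (measurableSet_eq_fun (by fun_prop) measurable_const) (by
    filter_upwards [hc, h.orth] with z h1 h2
    rw [inner_pr, coe_pr h.he, inner_add_right, inner_smul_right, h1, h2]
    simp)

end Crest.Agent.R246.C2
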